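import Vale.Agent.Lib.P126.SignInv

/-!
# P126: duality of metric entropy for diagonal images of an unconditional convex body

Let `B ⊂ ℝ^n` be an unconditional convex body (compact, convex, nonempty interior, invariant
under all coordinate sign changes) and let `K = D_s B`, `L = D_t B` be its images under two
positive diagonal maps.  Then the duality inequalities of the problem hold with the absolute
constants `a = 4`, `b = 3`:
`(1/3) log N(L°, 4 K°) ≤ log N(K, L) ≤ 3 log N(L°, K°/4)`.
-/

namespace Vale.Agent.Results.P126.UnconditionalDiagonal

open Pointwise Vale.Agent.Lib.P126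

/-- **Main result.** Duality of covering numbers, with `a = 4` and `b = 3`, for the pair
`K = D_s B`, `L = D_t B`, where `B` is an unconditional convex body in `ℝ^n` and `s, t` are
positive vectors. -/
theorem result : ∀ (n : ℕ) (B : Set (Fin n → ℝ)) (s t : Fin n → ℝ),
    IsCompact B → Convex ℝ B → (interior B).Nonempty →
    (∀ x ∈ B, ∀ ε : Fin n → ℝ, (∀ i, ε i = 1 ∨ ε i = -1) → (fun i => ε i * x i) ∈ B) →
    (∀ i, 0 < s i) → (∀ i, 0 < t i) →
    Real.log (coveringNumber (polar (diagImage t B)) ((4 : ℝ) • polar (diagImage s B)))
        ≤ 3 * Real.log (coveringNumber (diagImage s B) (diagImage t B)) ∧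
    Real.log (coveringNumber (diagImage s B) (diagImage t B))
        ≤ 3 * Real.log (coveringNumber (polar (diagImage t B))
            ((1 / 4 : ℝ) • polar (diagImage s B))) := by
  intro n B s t hcomp hconv hint hsign hs ht
  exact duality_diag
    (isSolidBody_of_compact hcomp hconv hint (unconditional_of_sign hconv hsign)) s t hs ht

end Vale.Agent.Results.P126.UnconditionalDiagonal
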